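import Vale.Agent.P154.Data2.R01
import Vale.Agent.P154.Data2.R11
import Vale.Agent.P154.Data2.R21
import Vale.Agent.P154.Data2.R31
import Vale.Agent.P154.Data2.R12
import Vale.Agent.P154.Data2.R22
import Vale.Agent.P154.Data2.R32
import Vale.Agent.P154.Data2.R13
import Vale.Agent.P154.Data2.R23
import Vale.Agent.P154.Data2.R33
import Vale.Agent.P154.Data2.R24
import Vale.Agent.P154.Data2.R34
import Vale.Agent.P154.Data2.R35

namespace Vale.Agent.P154.Data2

open PolyR

/-- The tables. -/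
def Rw : Rows where
  R01 := i01 ++ e01
  R11 := i11 ++ e11
  R21 := i21 ++ e21
  R31 := i31 ++ e31
  R12 := i12 ++ e12
  R22 := i22 ++ e22
  R32 := i32 ++ e32
  R13 := i13 ++ e13
  R23 := i23 ++ e23
  R33 := i33 ++ e33
  R24 := i24 ++ e24
  R34 := i34 ++ e34
  R35 := i35 ++ e35

end Vale.Agent.P154.Data2
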